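import Vale.Agent.P233.H715.TestI
import Vale.Agent.P242.H881.Grad2

/-! P242, F-LAP2 (helper225): the pointwise square bound of the Laplacian of the heat flow,
`(Δ P_t f)² ≤ (8 N e^{2|K|t} / t²) P_t (f²)` almost everywhere. -/

open MeasureTheory Filter Topology
open scoped ENNReal NNReal InnerProductSpace

namespace Vale.Agent.P242.H225

open Vale.Agent.P233 Vale.Agent.P233.H715

variable {M : Type*} [MeasurableSpace M] {m : Measure M} {C : Calc m}
variable {K N T : ℝ} {f σ σ' : M →ₘ[m] ℝ}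

/-- weak form, test functions -/
theorem lap_weak2 (hC : IsGamma C) (hN : 0 < N) (hB : C.BE K N) (hT : 0 < T) (hf : f ∈ C.TestI)
    (h0 : 0 ≤ σ) (hσ : C.IsLap σ σ') (ht : MemLp σ ∞ m) (ht' : MemLp σ' ∞ m) :
    I (σ * C.P T (C.lap f) ^ 2) ≤ 2 * N * Real.exp (2 * |K| * T) / T ^ 2 * I (σ * C.P T (f ^ 2)) := by
  have hD := hC.toIsDir
  have hBi := hC.bei hN hB
  have hlap := hC.test_isLap hf.1
  set f' := C.lap f with hf'
  have hf2 : MemLp f 2 m := hD.memLp _ hlap.1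
  have hft : MemLp f ∞ m := (hC.test_A hf.1).2
  have hw2 : MemLp f' 2 m := hlap.2.1
  have hwt : MemLp f' ∞ m := hf.2
  have hσ2 : MemLp σ 2 m := hD.memLp _ hσ.1
  have hσ'2 : MemLp σ' 2 m := hσ.2.1
  set A := I (σ * C.P T f' ^ 2) with hA
  have hA0 : 0 ≤ A := I_nonneg (mul_nonneg h0 (sq_nonneg' _))
  set H : ℝ → ℝ := fun s => I (C.P s σ * C.Γ (C.P (T - s) f) (C.P (T - s) f)) with hH
  -- formula for `H`
  have hHeq : ∀ s, 0 < s → s < T → H s = 2⁻¹ * I (C.P s σ' * (C.P (T - s) f * C.P (T - s) f))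
      - I (C.P s σ * (C.P (T - s) f * C.P (T - s) f')) := by
    intro s hs hst
    have hts : 0 < T - s := by linarith
    have e := hD.lap_sq_identity (a := C.P s σ) (u := C.P (T - s) f)
      ⟨hD.P_mem hs hσ2, hD.P_memTop hs.le hσ2 ht⟩ ⟨hD.P_mem hts hf2, hD.P_memTop hts.le hf2 hft⟩
      (hD.P_isLap_of s hσ) (hD.P_isLap_of (T - s) hlap)
    rw [sq, mul_assoc (C.P s σ)] at e
    show I (C.P s σ * C.Γ (C.P (T - s) f) (C.P (T - s) f)) = _
    linarith
  have hHder : ∀ s, 0 < s → s < T → HasDerivAt H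
      (I (C.P s σ' * C.Γ (C.P (T - s) f) (C.P (T - s) f))
        - 2 * I (C.P s σ * C.Γ (C.P (T - s) f) (C.P (T - s) f'))) s := by
    intro s hs hst
    have d1 := (hasDeriv_PP2 hD hσ'2 ht' hf2 hft hf2 hft hs hst).const_mul (2 : ℝ)⁻¹
    have d2 := hasDeriv_PP2 hD hσ2 ht hf2 hft hw2 hwt hs hst
    have d3 := d1.sub d2
    have e : I (C.P s σ' * C.Γ (C.P (T - s) f) (C.P (T - s) f))
        - 2 * I (C.P s σ * C.Γ (C.P (T - s) f) (C.P (T - s) f'))
        = 2⁻¹ * (2 * I (C.P s σ' * C.Γ (C.P (T - s) f) (C.P (T - s) f)))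
          - 2 * I (C.P s σ * C.Γ (C.P (T - s) f) (C.P (T - s) f')) := by ring
    rw [e]
    refine d3.congr_of_eventuallyEq ?_
    filter_upwards [(lt_mem_nhds hs).and (gt_mem_nhds hst)] with r hr
    exact hHeq r hr.1 hr.2
  have hH0 : ∀ s, 0 < s → s < T → 0 ≤ H s := fun s hs hst =>
    I_nonneg (mul_nonneg (hD.P_nonneg hs.le hσ2 h0) (hC.nonneg _ (hD.P_mem (by linarith) hf2)))
  -- the differential inequality
  have hineq : ∀ s, 0 < s → s < T → -(2 * |K|) * H s + 2 / N * A ≤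
      I (C.P s σ' * C.Γ (C.P (T - s) f) (C.P (T - s) f))
        - 2 * I (C.P s σ * C.Γ (C.P (T - s) f) (C.P (T - s) f')) := by
    intro s hs hst
    have hts : 0 < T - s := by linarith
    have hu := hD.P_mem hts hf2
    have hw := hD.P_mem hts hw2
    have hgt := hD.P_memTop hs.le hσ2 ht
    have hwt' := hD.P_memTop hts.le hw2 hwt
    have b := hB (C.P (T - s) f) (C.P (T - s) f') (C.P s σ) (C.P s σ')
      (hD.P_isLap_of _ hlap) hw (hD.P_isLap_of s hσ) (hD.P_nonneg hs.le hσ2 h0) hgt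
      (hD.P_memTop hs.le hσ'2 ht')
    have i1 : MemLp (C.P s σ * C.Γ (C.P (T - s) f) (C.P (T - s) f')) 1 m :=
      mem_mul_top hgt (hD.Γ_mem1 hu hw)
    have i2 : MemLp (C.P s σ * C.Γ (C.P (T - s) f) (C.P (T - s) f)) 1 m :=
      mem_mul_top hgt (hD.Γ_mem1 hu hu)
    have i3 : MemLp (C.P s σ * C.P (T - s) f' ^ 2 : M →ₘ[m] ℝ) 1 m :=
      mem_mul_top hgt (mem_sq (hD.P_mem2 _ hw2))
    have e1 : C.P s σ * (C.Γ (C.P (T - s) f) (C.P (T - s) f')
        + K • C.Γ (C.P (T - s) f) (C.P (T - s) f) + N⁻¹ • C.P (T - s) f' ^ 2)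
        = C.P s σ * C.Γ (C.P (T - s) f) (C.P (T - s) f')
          + K • (C.P s σ * C.Γ (C.P (T - s) f) (C.P (T - s) f))
          + N⁻¹ • (C.P s σ * C.P (T - s) f' ^ 2) := by
      rw [mul_add, mul_add, mul_smul_comm, mul_smul_comm]
    have b' : I (C.P s σ * C.Γ (C.P (T - s) f) (C.P (T - s) f')) + K * H s
        + N⁻¹ * I (C.P s σ * C.P (T - s) f' ^ 2)
        ≤ 2⁻¹ * I (C.P s σ' * C.Γ (C.P (T - s) f) (C.P (T - s) f)) := by
      have b1 : I (C.P s σ * (C.Γ (C.P (T - s) f) (C.P (T - s) f')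
        + K • C.Γ (C.P (T - s) f) (C.P (T - s) f) + N⁻¹ • C.P (T - s) f' ^ 2))
        ≤ I ((2 : ℝ)⁻¹ • (C.Γ (C.P (T - s) f) (C.P (T - s) f) * C.P s σ')) := b
      rw [e1, I_add (mem_add i1 (mem_smul _ i2)) (mem_smul _ i3), I_add i1 (mem_smul _ i2),
        I_smul, I_smul, I_smul, mul_comm (C.Γ (C.P (T - s) f) (C.P (T - s) f))] at b1
      exact b1
    have j : A ≤ I (C.P s σ * C.P (T - s) f' ^ 2) := mono_PP hD h0 hσ2 ht hw2 hwt hs.le hst.le
    have j' : N⁻¹ * A ≤ N⁻¹ * I (C.P s σ * C.P (T - s) f' ^ 2) :=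
      mul_le_mul_of_nonneg_left j (inv_nonneg.2 hN.le)
    have k1 : -|K| * H s ≤ K * H s := mul_le_mul_of_nonneg_right (neg_abs_le K) (hH0 s hs hst)
    have e2 : 2 / N * A = 2 * (N⁻¹ * A) := by rw [div_eq_mul_inv]; ring
    rw [e2]
    linarith
  -- integration on `[T/4, T/2]`
  have hexp : ∀ s : ℝ, HasDerivAt (fun s => Real.exp (2 * |K| * s))
      (Real.exp (2 * |K| * s) * (2 * |K|)) s := fun s => by
    have h := ((hasDerivAt_id s).const_mul (2 * |K|)).exp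
    simpa using h
  have hmv := Convex.mul_sub_le_image_sub_of_le_deriv (convex_Icc (T / 4) (T / 2))
    (f := fun s => Real.exp (2 * |K| * s) * H s)
    (fun s hs => ((hexp s).mul (hHder s (by linarith [hs.1]) (by
      linarith [hs.2]))).continuousAt.continuousWithinAt)
    (fun s hs => by
      rw [interior_Icc] at hs
      exact ((hexp s).mul (hHder s (by linarith [hs.1]) (by
        linarith [hs.2]))).differentiableAt.differentiableWithinAt)
    (C := 2 / N * A)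
    (fun s hs => by
      rw [interior_Icc] at hs
      have s1 : 0 < s := by linarith [hs.1]
      have s2 : s < T := by linarith [hs.2]
      have hd := ((hexp s).mul (hHder s s1 s2)).deriv
      have e : (fun s => Real.exp (2 * |K| * s) * H s)
        = (fun s => Real.exp (2 * |K| * s)) * H := rfl
      rw [e, hd]
      have k := hineq s s1 s2
      have he : 1 ≤ Real.exp (2 * |K| * s) := Real.one_le_exp (by positivity)
      have hA2 : 0 ≤ 2 / N * A := by positivity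
      set X := Real.exp (2 * |K| * s)
      set Y := I (C.P s σ' * C.Γ (C.P (T - s) f) (C.P (T - s) f))
        - 2 * I (C.P s σ * C.Γ (C.P (T - s) f) (C.P (T - s) f'))
      have hX : 0 ≤ X := by linarith
      calc 2 / N * A ≤ X * (2 / N * A) := le_mul_of_one_le_left hA2 he
        _ ≤ X * (2 * |K| * H s + Y) := mul_le_mul_of_nonneg_left (by linarith) hX
        _ = X * (2 * |K|) * H s + X * Y := by ring)
    (T / 4) (Set.left_mem_Icc.2 (by linarith)) (T / 2) (Set.right_mem_Icc.2 (by linarith))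
    (by linarith)
  have hq : 0 ≤ Real.exp (2 * |K| * (T / 4)) * H (T / 4) :=
    mul_nonneg (Real.exp_pos _).le (hH0 _ (by linarith) (by linarith))
  -- bound of `H (T/2)`
  have hT2 : 0 < T / 2 := by linarith
  have hPσ2 := hD.P_mem2 (T / 2) hσ2
  have hPσt := hD.P_memTop hT2.le hσ2 ht
  have hP0 := hD.P_nonneg hT2.le hσ2 h0
  have hrp := H881.reverse_poincare_weak hC hBi hT2 hf2 hft hP0 hPσ2 hPσt
  have hf22 : MemLp (f ^ 2 : M →ₘ[m] ℝ) 2 m := H881.sq_mem2 hf2 hft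
  have hdrop : I (C.P (T / 2) σ * (C.P (T / 2) (f ^ 2) - C.P (T / 2) f ^ 2))
      ≤ I (σ * C.P T (f ^ 2)) := by
    have a1 : MemLp (C.P (T / 2) f ^ 2 : M →ₘ[m] ℝ) 2 m :=
      H881.sq_mem2 (hD.P_mem2 _ hf2) (hD.P_memTop hT2.le hf2 hft)
    rw [mul_sub, I_sub (mem_mul_22 hPσ2 (hD.P_mem2 _ hf22)) (mem_mul_22 hPσ2 a1),
      hD.P_symm (T / 2) hσ2 (hD.P_mem2 _ hf22), hD.P_P hT2.le hT2.le hf22, add_halves]
    have := I_nonneg (mul_nonneg hP0 (sq_nonneg' (C.P (T / 2) f)))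
    linarith
  have hHT : H (T / 2) ≤ Real.exp (|K| * T) / T * I (σ * C.P T (f ^ 2)) := by
    have e4 : T - T / 2 = T / 2 := by ring
    have h5 : H (T / 2) = I (C.P (T / 2) σ * C.Γ (C.P (T / 2) f) (C.P (T / 2) f)) := by
      show I (C.P (T / 2) σ * C.Γ (C.P (T - T / 2) f) (C.P (T - T / 2) f)) = _
      rw [e4]
    rw [h5]
    have h6 := hrp.trans hdrop
    set D := I (C.P (T / 2) σ * C.Γ (C.P (T / 2) f) (C.P (T / 2) f))
    have e5 : 2 * (T / 2) * Real.exp (-(2 * |K| * (T / 2))) * D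
        = T * (Real.exp (|K| * T))⁻¹ * D := by
      rw [← Real.exp_neg]
      congr 2
      · ring
      · congr 1; ring
    rw [e5] at h6
    have hE := Real.exp_pos (|K| * T)
    rw [div_mul_eq_mul_div, le_div_iff₀ hT]
    calc D * T = Real.exp (|K| * T) * (T * (Real.exp (|K| * T))⁻¹ * D) := by
          field_simp
      _ ≤ Real.exp (|K| * T) * I (σ * C.P T (f ^ 2)) := mul_le_mul_of_nonneg_left h6 hE.le
  have e5 : 2 * |K| * (T / 2) = |K| * T := by ring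
  rw [e5] at hmv
  set J := I (σ * C.P T (f ^ 2)) with hJ
  have h6 : 2 / N * A * (T / 4) ≤ Real.exp (|K| * T) * (Real.exp (|K| * T) / T * J) := by
    have h7 : T / 2 - T / 4 = T / 4 := by ring
    rw [h7] at hmv
    have h8 := mul_le_mul_of_nonneg_left hHT (Real.exp_pos (|K| * T)).le
    linarith
  have e6 : Real.exp (2 * |K| * T) = Real.exp (|K| * T) * Real.exp (|K| * T) := by
    rw [← Real.exp_add]; congr 1; ring
  rw [e6]
  have e7 : A = 2 * N / T * (2 / N * A * (T / 4)) := by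
    field_simp
    ring
  rw [e7]
  calc 2 * N / T * (2 / N * A * (T / 4))
      ≤ 2 * N / T * (Real.exp (|K| * T) * (Real.exp (|K| * T) / T * J)) :=
        mul_le_mul_of_nonneg_left h6 (by positivity)
    _ = _ := by field_simp

/-- the bound for test functions -/
theorem lap_sq_test (hC : IsGamma C) (hN : 0 < N) (hB : C.BE K N) (hT : 0 < T)
    (hf : f ∈ C.TestI) :
    ∀ᵐ x ∂m, C.lap (C.P T f) x ^ 2 ≤ 2 * N * Real.exp (2 * |K| * T) / T ^ 2 * C.P T (f ^ 2) x := by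
  have hD := hC.toIsDir
  have hlap := hC.test_isLap hf.1
  have hf2 : MemLp f 2 m := hD.memLp _ hlap.1
  have hft : MemLp f ∞ m := (hC.test_A hf.1).2
  have hw2 : MemLp (C.lap f) 2 m := hlap.2.1
  have hwt : MemLp (C.lap f) ∞ m := hf.2
  have hP2 := hD.P_mem2 T hw2
  have hPt := hD.P_memTop hT.le hw2 hwt
  have hf22 : MemLp (f ^ 2 : M →ₘ[m] ℝ) 2 m := H881.sq_mem2 hf2 hft
  rw [hD.P_lap_of T hlap]
  set c : ℝ := 2 * N * Real.exp (2 * |K| * T) / T ^ 2 with hc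
  have hF2 : MemLp (C.P T (C.lap f) ^ 2 : M →ₘ[m] ℝ) 2 m := by
    rw [sq]; exact mem_mul_top hPt hP2
  have hG2 : MemLp (c • C.P T (f ^ 2) : M →ₘ[m] ℝ) 2 m := mem_smul _ (hD.P_mem2 _ hf22)
  have key := le_const_of_forall2 (F := C.P T (C.lap f) ^ 2 - c • C.P T (f ^ 2))
    (mem_sub hF2 hG2) (K := 0) le_rfl (fun ψ h0 h2 h1 htop => ?_)
  · filter_upwards [key, sub_ae (C.P T (C.lap f) ^ 2) (c • C.P T (f ^ 2)),
      sq_ae (C.P T (C.lap f)), smul_ae (C.P T (f ^ 2)) c] with x a b d e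
    rw [b, d, e] at a
    linarith
  have hlim : Tendsto (fun n : ℕ => I ((C.P T (C.lap f) ^ 2 - c • C.P T (f ^ 2))
      * C.J ((n : ℝ) + 1)⁻¹ ψ)) atTop
      (𝓝 (I ((C.P T (C.lap f) ^ 2 - c • C.P T (f ^ 2)) * ψ))) := by
    have hl : ∀ n : ℕ, (0 : ℝ) < ((n : ℝ) + 1)⁻¹ := fun n => by positivity
    refine tendsto_I_mul (fun n => mem_sub hF2 hG2) (mem_sub hF2 hG2)
      (fun n => hD.J_mem2 (hl n) h2) h2 ?_ (hD.J_tendsto_L2 h2)
    simp only [sub_self, ne_eq, OfNat.ofNat_ne_zero, not_false_eq_true, zero_pow, I_zero]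
    exact tendsto_const_nhds
  refine le_of_tendsto hlim (Filter.Eventually.of_forall fun n => ?_)
  have hl : (0 : ℝ) < ((n : ℝ) + 1)⁻¹ := by positivity
  obtain ⟨B, hBd⟩ := mem_top_iff.1 htop
  have hJb := mem_top_iff.2 ⟨B, hD.J_bdd hl h2 hBd⟩
  have hJ2 := hD.J_mem2 hl h2
  have h := lap_weak2 hC hN hB hT hf (hD.J_nonneg hl h2 h0) (hD.J_isLap hl h2) hJb
    (mem_smul _ (mem_sub hJb htop))
  rw [sub_mul, I_sub (mem_mul_22 hF2 hJ2) (mem_mul_22 hG2 hJ2), smul_mul_assoc, I_smul, zero_mul,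
    mul_comm (C.P T (C.lap f) ^ 2), mul_comm (C.P T (f ^ 2))]
  linarith

/-- Jensen: `(P_t f)² ≤ P_t (f²)` -/
theorem P_sq_le_P (hC : IsGamma C) (hBi : C.BEi K) (hT : 0 < T) (hf : MemLp f 2 m)
    (hft : MemLp f ∞ m) : C.P T f ^ 2 ≤ C.P T (f ^ 2) := by
  rw [le_iff_ae]
  have hW := hC.toIsDir.P_mem hT hf
  filter_upwards [H881.reverse_poincare hC hBi hT hf hft, sq_ae (C.P T f),
    nonneg_iff_ae.1 (hC.nonneg _ hW)] with x a b c
  rw [b]
  have : 0 ≤ 2 * T * Real.exp (-(2 * |K| * T)) * C.Γ (C.P T f) (C.P T f) x := by positivity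
  linarith

/-- **(G4)** `(Δ P_t f)² ≤ (8 N e^{2|K|t} / t²) P_t (f²)` for `f ∈ L² ∩ L^∞` -/
theorem lap_sq_le (hC : IsGamma C) [SigmaFinite m] (hN : 0 < N) (hB : C.BE K N) (hT : 0 < T)
    (hf : MemLp f 2 m) (hft : MemLp f ∞ m) :
    ∀ᵐ x ∂m, C.lap (C.P T f) x ^ 2 ≤ 8 * N * Real.exp (2 * |K| * T) / T ^ 2 * C.P T (f ^ 2) x := by
  have hD := hC.toIsDir
  have hBi := hC.bei hN hB
  have hT2 : 0 < T / 2 := by linarith
  have hf22 : MemLp (f ^ 2 : M →ₘ[m] ℝ) 2 m := H881.sq_mem2 hf hft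
  have hg2 := hD.P_mem2 (T / 2) hf
  have hgt := hD.P_memTop hT2.le hf hft
  have h1 := lap_sq_test hC hN hB hT2 (P_testI_pos hC hN hB hT2 hf hft)
  have e1 : C.P (T / 2) (C.P (T / 2) f) = C.P T f := by
    rw [hD.P_P hT2.le hT2.le hf, add_halves]
  have e2 : C.P (T / 2) (C.P (T / 2) (f ^ 2)) = C.P T (f ^ 2) := by
    rw [hD.P_P hT2.le hT2.le hf22, add_halves]
  rw [e1] at h1
  have h2 : C.P (T / 2) (C.P (T / 2) f ^ 2) ≤ C.P T (f ^ 2) := by
    rw [← e2]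
    exact hD.P_mono hT2.le (H881.sq_mem2 hg2 hgt) (hD.P_mem2 _ hf22) (P_sq_le_P hC hBi hT2 hf hft)
  have h3 : 0 ≤ C.P T (f ^ 2) := hD.P_nonneg hT.le hf22 (sq_nonneg' _)
  filter_upwards [h1, le_iff_ae.1 h2, nonneg_iff_ae.1 h3] with x a b c
  refine a.trans ?_
  have hexp : Real.exp (2 * |K| * (T / 2)) ≤ Real.exp (2 * |K| * T) := by
    apply Real.exp_le_exp.2
    have := mul_nonneg (abs_nonneg K) hT.le
    nlinarith
  have e3 : 2 * N * Real.exp (2 * |K| * (T / 2)) / (T / 2) ^ 2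
      = 8 * N * Real.exp (2 * |K| * (T / 2)) / T ^ 2 := by
    field_simp
    ring
  rw [e3]
  calc 8 * N * Real.exp (2 * |K| * (T / 2)) / T ^ 2 * C.P (T / 2) (C.P (T / 2) f ^ 2) x
      ≤ 8 * N * Real.exp (2 * |K| * (T / 2)) / T ^ 2 * C.P T (f ^ 2) x :=
        mul_le_mul_of_nonneg_left b (by positivity)
    _ ≤ _ := by
        refine mul_le_mul_of_nonneg_right ?_ c
        gcongr

end Vale.Agent.P242.H225
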